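import Vale.Agent.P088.R2.H808.A.J2
import Vale.Agent.P088.R2.H464.EP.Rq
import Vale.Agent.P088.R2.H961.W.Inst

/-!
# Bounds of the derivatives of basic functions on pairs of points
-/

open Set Filter
open scoped ContDiff Topology

noncomputable section

namespace Vale.Agent.P088.R2.H808.A

open Vale.Agent.P088.LR Vale.Agent.P088.HY
open Vale.Agent.P088.R2.H464.Cu (mid dif midL midL_apply)

variable {n : ℕ}

/-- The basic directions. -/
def dr (n : ℕ) : Fin n ⊕ Fin n → VV n :=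
  Sum.elim (fun i => (Pi.single i 1, 0)) (fun i => (0, Pi.single i 1))

/-- The first and second partial derivatives at a point. -/
structure P2 (ψ : V n → ℝ) (b₁ b₂ : ℝ) (x : V n) : Prop where
  sm : ContDiffAt ℝ 2 ψ x
  p1 : ∀ i, |pd i ψ x| ≤ b₁
  p2 : ∀ i j, |pd i (pd j ψ) x| ≤ b₂

variable {ψ : V n → ℝ} {b₁ b₂ : ℝ} {x : V n} {z : VV n}

theorem pd_pd (h : ContDiffAt ℝ 2 ψ x) (i j : Fin n) :
    pd i (pd j ψ) x = fderiv ℝ (fderiv ℝ ψ) x (Pi.single i 1) (Pi.single j 1) := by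
  have hd : DifferentiableAt ℝ (fderiv ℝ ψ) x :=
    (h.fderiv_right (m := 1) (by norm_num)).differentiableAt (by norm_num)
  have h4 := (hd.hasFDerivAt.clm_apply (hasFDerivAt_const (Pi.single j (1 : ℝ)) x)).fderiv
  have e : pd j ψ = fun y => fderiv ℝ ψ y (Pi.single j 1) := rfl
  rw [e]
  unfold pd
  rw [h4]
  simp

theorem P2.b1 (h : P2 ψ b₁ b₂ x) (i : Fin n) : 0 ≤ b₁ := (abs_nonneg _).trans (h.p1 i)

theorem J2.fst (h : P2 ψ b₁ b₂ z.1) (h1 : 0 ≤ b₁) (h2 : 0 ≤ b₂) :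
    J2 (dr n) (fun w => ψ w.1) b₁ b₂ z := by
  refine J2.clin (ContinuousLinearMap.fst ℝ (V n) (V n)) (ψ := ψ) h.sm (fun a => ?_) fun a b => ?_
  · rcases a with i | i
    · exact h.p1 i
    · simpa [dr] using h1
  · rcases a with i | i <;> rcases b with j | j
    · have := h.p2 i j
      rw [pd_pd h.sm] at this
      exact this
    · simpa [dr] using h2
    · simpa [dr] using h2
    · simpa [dr] using h2

theorem J2.snd (h : P2 ψ b₁ b₂ z.2) (h1 : 0 ≤ b₁) (h2 : 0 ≤ b₂) :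
    J2 (dr n) (fun w => ψ w.2) b₁ b₂ z := by
  refine J2.clin (ContinuousLinearMap.snd ℝ (V n) (V n)) (ψ := ψ) h.sm (fun a => ?_) fun a b => ?_
  · rcases a with i | i
    · simpa [dr] using h1
    · exact h.p1 i
  · rcases a with i | i <;> rcases b with j | j
    · simpa [dr] using h2
    · simpa [dr] using h2
    · simpa [dr] using h2
    · have := h.p2 i j
      rw [pd_pd h.sm] at this
      exact this

theorem midL_dr (a : Fin n ⊕ Fin n) :
    midL n (dr n a) = (1 / 2 : ℝ) • Pi.single (Sum.elim id id a) 1 := by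
  rcases a with i | i <;> simp [midL_apply, mid, dr]

theorem J2.mid (h : P2 ψ b₁ b₂ (mid z)) :
    J2 (dr n) (fun w => ψ (mid w)) (1 / 2 * b₁) (1 / 4 * b₂) z := by
  refine J2.clin (midL n) (ψ := ψ) h.sm (fun a => ?_) fun a b => ?_
  · rw [midL_dr, map_smul, smul_eq_mul, abs_mul, abs_of_pos (by norm_num : (0 : ℝ) < 1 / 2)]
    exact mul_le_mul_of_nonneg_left (h.p1 _) (by norm_num)
  · have := h.p2 (Sum.elim id id a) (Sum.elim id id b)
    rw [pd_pd h.sm] at this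
    rw [midL_dr, midL_dr, map_smul, map_smul, smul_apply, smul_eq_mul, smul_eq_mul, ← mul_assoc,
      abs_mul, abs_of_pos (by norm_num : (0 : ℝ) < 1 / 2 * (1 / 2)),
      show (1 / 4 : ℝ) = 1 / 2 * (1 / 2) by norm_num]
    exact mul_le_mul_of_nonneg_left this (by norm_num)

/-- The coordinates of the difference. -/
theorem J2.q (j : Fin n) : J2 (dr n) (fun w => w.1 j - w.2 j) 1 0 z := by
  have h := J2.lin (e := dr n) (z := z) (b₁ := 1)
    ((ContinuousLinearMap.proj j).comp (ContinuousLinearMap.fst ℝ (V n) (V n)) -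
      (ContinuousLinearMap.proj j).comp (ContinuousLinearMap.snd ℝ (V n) (V n)) :
        VV n →L[ℝ] ℝ) fun a => ?_
  · exact h
  · rcases a with i | i
    · by_cases hij : i = j
      · subst hij; simp [dr]
      · simp [dr, Ne.symm hij]
    · by_cases hij : i = j
      · subst hij; simp [dr]
      · simp [dr, Ne.symm hij]

/-! ## From the norms of the derivatives -/

theorem sm_pd (h : ContDiff ℝ ∞ ψ) (k : Fin n) : ContDiff ℝ ∞ (pd k ψ) := by
  unfold pd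
  exact (h.fderiv_right (m := ∞) (by simp)).clm_apply contDiff_const

theorem jet_pd (h : ContDiff ℝ ∞ ψ) (k : Fin n) (m : ℕ) (x : V n) :
    ‖iteratedFDeriv ℝ m (pd k ψ) x‖ ≤ ‖iteratedFDeriv ℝ (m + 1) ψ x‖ := by
  have h1 : ContDiff ℝ ∞ (fderiv ℝ ψ) := h.fderiv_right (m := ∞) (by simp)
  have s1 : ContDiffAt ℝ (m : ℕ∞ω) (fderiv ℝ ψ) x :=
    h1.contDiffAt.of_le (by exact_mod_cast le_top)
  have e : ‖iteratedFDeriv ℝ m (ContinuousLinearMap.apply ℝ ℝ (Pi.single k (1 : ℝ)) ∘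
      fderiv ℝ ψ) x‖ ≤ ‖ContinuousLinearMap.apply ℝ ℝ (Pi.single k (1 : ℝ) : V n)‖ *
        ‖iteratedFDeriv ℝ m (fderiv ℝ ψ) x‖ :=
    (ContinuousLinearMap.apply ℝ ℝ (Pi.single k (1 : ℝ) : V n)).norm_iteratedFDeriv_comp_left s1
      le_rfl
  rw [norm_iteratedFDeriv_fderiv] at e
  refine e.trans ?_
  refine mul_le_of_le_one_left (norm_nonneg _) ?_
  refine ContinuousLinearMap.opNorm_le_bound _ zero_le_one fun L => ?_
  rw [ContinuousLinearMap.apply_apply, one_mul]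
  refine (L.le_opNorm _).trans ?_
  rw [Pi.norm_single, norm_one, mul_one]

theorem abs_pd (k : Fin n) (ψ : V n → ℝ) (x : V n) : |pd k ψ x| ≤ ‖iteratedFDeriv ℝ 1 ψ x‖ := by
  rw [norm_iteratedFDeriv_one]
  unfold pd
  refine ((fderiv ℝ ψ x).le_opNorm _).trans ?_
  rw [Pi.norm_single, norm_one, mul_one]

theorem P2.of_jet (h : ContDiff ℝ ∞ ψ) (h1 : ‖iteratedFDeriv ℝ 1 ψ x‖ ≤ b₁)
    (h2 : ‖iteratedFDeriv ℝ 2 ψ x‖ ≤ b₂) : P2 ψ b₁ b₂ x :=
  ⟨h.contDiffAt.of_le (by norm_cast), fun i => (abs_pd i ψ x).trans h1,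
    fun i j => ((abs_pd i _ x).trans (jet_pd h j 1 x)).trans h2⟩

theorem P2.pd_of_jet (h : ContDiff ℝ ∞ ψ) (k : Fin n) (h1 : ‖iteratedFDeriv ℝ 2 ψ x‖ ≤ b₁)
    (h2 : ‖iteratedFDeriv ℝ 3 ψ x‖ ≤ b₂) : P2 (pd k ψ) b₁ b₂ x :=
  P2.of_jet (sm_pd h k) ((jet_pd h k 1 x).trans h1) ((jet_pd h k 2 x).trans h2)

end Vale.Agent.P088.R2.H808.A
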