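import Mathlib.Analysis.Calculus.ContDiff.Operations
import Mathlib.Analysis.Calculus.ContDiff.Deriv
import Mathlib.Analysis.Calculus.Deriv.Comp
import Mathlib.Analysis.Calculus.FDeriv.Mul
import Mathlib.Analysis.SpecialFunctions.Pow.Real
import Mathlib.Tactic

/-!
# Bounds of the first and second directional derivatives of a function at a point
-/

open Set Filter
open scoped ContDiff Topology

noncomputable section

namespace Vale.Agent.P088.R2.H808.A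

variable {E α : Type*} [NormedAddCommGroup E] [NormedSpace ℝ E]

/-- The derivative in the direction `v`. -/
def dv (v : E) (f : E → ℝ) (z : E) : ℝ := fderiv ℝ f z v

/-- The first and second derivatives in the directions `e a` are at most `b₁`, `b₂`. -/
structure J2 (e : α → E) (f : E → ℝ) (b₁ b₂ : ℝ) (z : E) : Prop where
  sm : ContDiffAt ℝ 2 f z
  d1 : ∀ a, |dv (e a) f z| ≤ b₁
  d2 : ∀ a b, |dv (e a) (dv (e b) f) z| ≤ b₂

section basic

variable {f g h : E → ℝ} {z v w : E} {φ : ℝ → ℝ}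

theorem ev_diff (hf : ContDiffAt ℝ 2 f z) : ∀ᶠ w in 𝓝 z, DifferentiableAt ℝ f w :=
  (hf.eventually (by simp)).mono fun _ h => h.differentiableAt (by norm_num)

theorem diff2 (hf : ContDiffAt ℝ 2 f z) : DifferentiableAt ℝ f z :=
  hf.differentiableAt (by norm_num)

theorem sm_dv (v : E) (hf : ContDiffAt ℝ 2 f z) : ContDiffAt ℝ 1 (dv v f) z :=
  (hf.fderiv_right (m := 1) (by norm_num)).clm_apply contDiffAt_const

theorem diff_dv (v : E) (hf : ContDiffAt ℝ 2 f z) : DifferentiableAt ℝ (dv v f) z :=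
  (sm_dv v hf).differentiableAt (by norm_num)

theorem dv_ev (v : E) (h : f =ᶠ[𝓝 z] g) : dv v f =ᶠ[𝓝 z] dv v g := by
  filter_upwards [h.fderiv (𝕜 := ℝ)] with w hw
  unfold dv
  rw [hw]

theorem dv_congr (v : E) (h : f =ᶠ[𝓝 z] g) : dv v f z = dv v g z := (dv_ev v h).eq_of_nhds

theorem dv_const (v : E) (c : ℝ) : dv v (fun _ : E => c) = fun _ => 0 := by
  funext w
  unfold dv
  simp

theorem dv_add (v : E) (hf : DifferentiableAt ℝ f z) (hg : DifferentiableAt ℝ g z) :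
    dv v (fun w => f w + g w) z = dv v f z + dv v g z := by
  unfold dv
  rw [fderiv_fun_add hf hg]
  rfl

theorem dv_cmul (v : E) (c : ℝ) (hf : DifferentiableAt ℝ f z) :
    dv v (fun w => c * f w) z = c * dv v f z := by
  unfold dv
  rw [fderiv_const_mul hf]
  rfl

theorem dv_mul (v : E) (hf : DifferentiableAt ℝ f z) (hg : DifferentiableAt ℝ g z) :
    dv v (fun w => f w * g w) z = dv v f z * g z + f z * dv v g z := by
  unfold dv
  rw [fderiv_fun_mul hf hg]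
  simp only [add_apply, smul_apply, smul_eq_mul]
  ring

theorem dv_comp (v : E) (hφ : DifferentiableAt ℝ φ (f z)) (hf : DifferentiableAt ℝ f z) :
    dv v (fun w => φ (f w)) z = deriv φ (f z) * dv v f z := by
  unfold dv
  have := (hφ.hasDerivAt.comp_hasFDerivAt z hf.hasFDerivAt).fderiv
  have e : (φ ∘ f) = fun w => φ (f w) := rfl
  rw [e] at this
  rw [this]
  simp

theorem dv_sum {ι : Type*} (S : Finset ι) {F : ι → E → ℝ} (v : E)
    (hF : ∀ i ∈ S, DifferentiableAt ℝ (F i) z) :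
    dv v (fun w => ∑ i ∈ S, F i w) z = ∑ i ∈ S, dv v (F i) z := by
  unfold dv
  rw [fderiv_fun_sum hF]
  simp

end basic

variable {e : α → E} {f g : E → ℝ} {z : E} {b₁ b₂ c₁ c₂ B C : ℝ}

theorem J2.b1 [Nonempty α] (h : J2 e f b₁ b₂ z) : 0 ≤ b₁ :=
  (abs_nonneg _).trans (h.d1 (Classical.arbitrary α))

theorem J2.mono (h : J2 e f b₁ b₂ z) (h1 : b₁ ≤ c₁) (h2 : b₂ ≤ c₂) : J2 e f c₁ c₂ z :=
  ⟨h.sm, fun a => (h.d1 a).trans h1, fun a b => (h.d2 a b).trans h2⟩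

theorem J2.congr (h : J2 e f b₁ b₂ z) (hg : g =ᶠ[𝓝 z] f) : J2 e g b₁ b₂ z :=
  ⟨h.sm.congr_of_eventuallyEq hg, fun a => by rw [dv_congr _ hg]; exact h.d1 a,
    fun a b => by rw [dv_congr _ (dv_ev _ hg)]; exact h.d2 a b⟩

theorem J2.const (e : α → E) (c : ℝ) (z : E) : J2 e (fun _ => c) 0 0 z :=
  ⟨contDiffAt_const, fun a => by rw [dv_const]; simp, fun a b => by
    rw [dv_const, dv_const]; simp⟩

theorem J2.add (hf : J2 e f b₁ b₂ z) (hg : J2 e g c₁ c₂ z) :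
    J2 e (fun w => f w + g w) (b₁ + c₁) (b₂ + c₂) z := by
  refine ⟨hf.sm.add hg.sm, fun a => ?_, fun a b => ?_⟩
  · rw [dv_add _ (diff2 hf.sm) (diff2 hg.sm)]
    exact (abs_add_le _ _).trans (add_le_add (hf.d1 a) (hg.d1 a))
  · have h1 : dv (e b) (fun w => f w + g w) =ᶠ[𝓝 z] fun w => dv (e b) f w + dv (e b) g w := by
      filter_upwards [ev_diff hf.sm, ev_diff hg.sm] with w h1 h2 using dv_add _ h1 h2
    rw [dv_congr _ h1, dv_add _ (diff_dv _ hf.sm) (diff_dv _ hg.sm)]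
    exact (abs_add_le _ _).trans (add_le_add (hf.d2 a b) (hg.d2 a b))

theorem J2.cmul (c : ℝ) (hf : J2 e f b₁ b₂ z) :
    J2 e (fun w => c * f w) (|c| * b₁) (|c| * b₂) z := by
  refine ⟨contDiffAt_const.mul hf.sm, fun a => ?_, fun a b => ?_⟩
  · rw [dv_cmul _ _ (diff2 hf.sm), abs_mul]
    exact mul_le_mul_of_nonneg_left (hf.d1 a) (abs_nonneg _)
  · have h1 : dv (e b) (fun w => c * f w) =ᶠ[𝓝 z] fun w => c * dv (e b) f w := by
      filter_upwards [ev_diff hf.sm] with w h1 using dv_cmul _ _ h1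
    rw [dv_congr _ h1, dv_cmul _ _ (diff_dv _ hf.sm), abs_mul]
    exact mul_le_mul_of_nonneg_left (hf.d2 a b) (abs_nonneg _)

theorem J2.neg (hf : J2 e f b₁ b₂ z) : J2 e (fun w => -f w) b₁ b₂ z := by
  have := hf.cmul (-1)
  simpa using this

theorem J2.sub (hf : J2 e f b₁ b₂ z) (hg : J2 e g c₁ c₂ z) :
    J2 e (fun w => f w - g w) (b₁ + c₁) (b₂ + c₂) z := by
  simpa only [sub_eq_add_neg] using hf.add hg.neg

theorem J2.mul (hf : J2 e f b₁ b₂ z) (hg : J2 e g c₁ c₂ z) (hB : |f z| ≤ B) (hC : |g z| ≤ C) :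
    J2 e (fun w => f w * g w) (b₁ * C + B * c₁) (b₂ * C + 2 * (b₁ * c₁) + B * c₂) z := by
  have nB : 0 ≤ B := (abs_nonneg _).trans hB
  have nC : 0 ≤ C := (abs_nonneg _).trans hC
  refine ⟨hf.sm.mul hg.sm, fun a => ?_, fun a b => ?_⟩
  · rw [dv_mul _ (diff2 hf.sm) (diff2 hg.sm)]
    refine (abs_add_le _ _).trans ?_
    rw [abs_mul, abs_mul]
    exact add_le_add (mul_le_mul (hf.d1 a) hC (abs_nonneg _) ((abs_nonneg _).trans (hf.d1 a)))
      (mul_le_mul hB (hg.d1 a) (abs_nonneg _) nB)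
  · have h1 : dv (e b) (fun w => f w * g w) =ᶠ[𝓝 z]
        fun w => dv (e b) f w * g w + f w * dv (e b) g w := by
      filter_upwards [ev_diff hf.sm, ev_diff hg.sm] with w h1 h2 using dv_mul _ h1 h2
    have df := diff2 hf.sm
    have dg := diff2 hg.sm
    have df' := diff_dv (e b) hf.sm
    have dg' := diff_dv (e b) hg.sm
    rw [dv_congr _ h1, dv_add _ (df'.fun_mul dg) (df.fun_mul dg'), dv_mul _ df' dg,
      dv_mul _ df dg']
    have m1 : |dv (e a) (dv (e b) f) z * g z| ≤ b₂ * C := by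
      rw [abs_mul]
      exact mul_le_mul (hf.d2 a b) hC (abs_nonneg _) ((abs_nonneg _).trans (hf.d2 a b))
    have m2 : |dv (e b) f z * dv (e a) g z| ≤ b₁ * c₁ := by
      rw [abs_mul]
      exact mul_le_mul (hf.d1 b) (hg.d1 a) (abs_nonneg _) ((abs_nonneg _).trans (hf.d1 b))
    have m3 : |dv (e a) f z * dv (e b) g z| ≤ b₁ * c₁ := by
      rw [abs_mul]
      exact mul_le_mul (hf.d1 a) (hg.d1 b) (abs_nonneg _) ((abs_nonneg _).trans (hf.d1 a))
    have m4 : |f z * dv (e a) (dv (e b) g) z| ≤ B * c₂ := by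
      rw [abs_mul]
      exact mul_le_mul hB (hg.d2 a b) (abs_nonneg _) nB
    have t1 := abs_add_le (dv (e a) (dv (e b) f) z * g z + dv (e b) f z * dv (e a) g z)
      (dv (e a) f z * dv (e b) g z + f z * dv (e a) (dv (e b) g) z)
    have t2 := abs_add_le (dv (e a) (dv (e b) f) z * g z) (dv (e b) f z * dv (e a) g z)
    have t3 := abs_add_le (dv (e a) f z * dv (e b) g z) (f z * dv (e a) (dv (e b) g) z)
    linarith

theorem J2.sum {ι : Type*} (S : Finset ι) {F : ι → E → ℝ} {p q : ι → ℝ}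
    (h : ∀ i ∈ S, J2 e (F i) (p i) (q i) z) :
    J2 e (fun w => ∑ i ∈ S, F i w) (∑ i ∈ S, p i) (∑ i ∈ S, q i) z := by
  classical
  induction S using Finset.induction_on with
  | empty => simpa using J2.const e 0 z
  | insert a S ha ih =>
    simp only [Finset.sum_insert ha]
    exact (h a (Finset.mem_insert_self a S)).add
      (ih fun i hi => h i (Finset.mem_insert_of_mem hi))

theorem J2.comp {φ : ℝ → ℝ} {p₁ p₂ : ℝ} (hf : J2 e f b₁ b₂ z) (hφ : ContDiffAt ℝ 2 φ (f z))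
    (h1 : |deriv φ (f z)| ≤ p₁) (h2 : |deriv (deriv φ) (f z)| ≤ p₂) :
    J2 e (fun w => φ (f w)) (p₁ * b₁) (p₂ * b₁ ^ 2 + p₁ * b₂) z := by
  have np : 0 ≤ p₁ := (abs_nonneg _).trans h1
  have hφ' : ∀ᶠ t in 𝓝 (f z), DifferentiableAt ℝ φ t :=
    (hφ.eventually (by simp)).mono fun _ h => h.differentiableAt (by norm_num)
  have hd : ContDiffAt ℝ 1 (deriv φ) (f z) := by
    have h3 := (hφ.fderiv_right (m := 1) (by norm_num)).clm_apply
      (contDiffAt_const (c := (1 : ℝ)))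
    exact h3
  have dd : DifferentiableAt ℝ (deriv φ) (f z) := hd.differentiableAt (by norm_num)
  refine ⟨hφ.comp z hf.sm, fun a => ?_, fun a b => ?_⟩
  · rw [dv_comp _ hφ'.self_of_nhds (diff2 hf.sm), abs_mul]
    exact mul_le_mul h1 (hf.d1 a) (abs_nonneg _) np
  · have e1 : dv (e b) (fun w => φ (f w)) =ᶠ[𝓝 z] fun w => deriv φ (f w) * dv (e b) f w := by
      filter_upwards [ev_diff hf.sm, hf.sm.continuousAt.eventually hφ'] with w h1 h2 using
        dv_comp _ h2 h1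
    have d1 : DifferentiableAt ℝ (fun w => deriv φ (f w)) z :=
      DifferentiableAt.comp z dd (diff2 hf.sm)
    rw [dv_congr _ e1, dv_mul _ d1 (diff_dv _ hf.sm), dv_comp _ dd (diff2 hf.sm)]
    have m1 : |deriv (deriv φ) (f z) * dv (e a) f z * dv (e b) f z| ≤ p₂ * b₁ ^ 2 := by
      rw [abs_mul, abs_mul, pow_two, ← mul_assoc]
      have nb : 0 ≤ b₁ := (abs_nonneg _).trans (hf.d1 a)
      have np2 : 0 ≤ p₂ := (abs_nonneg _).trans h2
      exact mul_le_mul (mul_le_mul h2 (hf.d1 a) (abs_nonneg _) np2) (hf.d1 b) (abs_nonneg _)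
        (mul_nonneg np2 nb)
    have m2 : |deriv φ (f z) * dv (e a) (dv (e b) f) z| ≤ p₁ * b₂ := by
      rw [abs_mul]
      exact mul_le_mul h1 (hf.d2 a b) (abs_nonneg _) np
    exact (abs_add_le _ _).trans (add_le_add m1 m2)

/-- Composition with a function whose derivatives are known near the point. -/
theorem J2.comp' {φ φ₁ φ₂ : ℝ → ℝ} {p₁ p₂ : ℝ} {I : Set ℝ} (hI : IsOpen I)
    (hf : J2 e f b₁ b₂ z) (hz : f z ∈ I) (hφ : ContDiffOn ℝ 2 φ I)
    (k1 : ∀ t ∈ I, HasDerivAt φ (φ₁ t) t) (k2 : ∀ t ∈ I, HasDerivAt φ₁ (φ₂ t) t)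
    (h1 : |φ₁ (f z)| ≤ p₁) (h2 : |φ₂ (f z)| ≤ p₂) :
    J2 e (fun w => φ (f w)) (p₁ * b₁) (p₂ * b₁ ^ 2 + p₁ * b₂) z := by
  have e1 : deriv φ =ᶠ[𝓝 (f z)] φ₁ := by
    filter_upwards [hI.mem_nhds hz] with t ht using (k1 t ht).deriv
  refine hf.comp (hφ.contDiffAt (hI.mem_nhds hz)) ?_ ?_
  · rw [e1.eq_of_nhds]; exact h1
  · rw [e1.deriv_eq, (k2 _ hz).deriv]; exact h2

/-- Linear functions. -/
theorem J2.lin (L : E →L[ℝ] ℝ) (hb : ∀ a, |L (e a)| ≤ b₁) : J2 e (fun w => L w) b₁ 0 z := by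
  have e1 : ∀ v, dv v (fun w => L w) = fun _ => L v := fun v => by
    funext w
    unfold dv
    rw [L.fderiv]
  refine ⟨L.contDiff.contDiffAt, fun a => ?_, fun a b => ?_⟩
  · rw [e1]; exact hb a
  · rw [e1, dv_const]; simp

/-- A function composed with a linear map. -/
theorem J2.clin {F : Type*} [NormedAddCommGroup F] [NormedSpace ℝ F] (L : E →L[ℝ] F) {ψ : F → ℝ}
    (hψ : ContDiffAt ℝ 2 ψ (L z)) (h1 : ∀ a, |fderiv ℝ ψ (L z) (L (e a))| ≤ b₁)
    (h2 : ∀ a b, |fderiv ℝ (fderiv ℝ ψ) (L z) (L (e a)) (L (e b))| ≤ b₂) :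
    J2 e (fun w => ψ (L w)) b₁ b₂ z := by
  have e1 : ∀ v w, DifferentiableAt ℝ ψ (L w) →
      dv v (fun w => ψ (L w)) w = fderiv ℝ ψ (L w) (L v) := fun v w h => by
    unfold dv
    have h3 : HasFDerivAt (fun w => ψ (L w)) ((fderiv ℝ ψ (L w)).comp L) w :=
      h.hasFDerivAt.comp w L.hasFDerivAt
    rw [h3.fderiv]
    rfl
  have hd : ∀ᶠ w in 𝓝 z, DifferentiableAt ℝ ψ (L w) := by
    have h3 : ∀ᶠ t in 𝓝 (L z), DifferentiableAt ℝ ψ t :=
      (hψ.eventually (by simp)).mono fun _ h => h.differentiableAt (by norm_num)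
    exact L.continuous.continuousAt.eventually h3
  have hd2 : DifferentiableAt ℝ (fderiv ℝ ψ) (L z) :=
    (hψ.fderiv_right (m := 1) (by norm_num)).differentiableAt (by norm_num)
  refine ⟨hψ.comp z L.contDiff.contDiffAt, fun a => ?_, fun a b => ?_⟩
  · rw [e1 _ _ hd.self_of_nhds]
    exact h1 a
  · have e2 : dv (e b) (fun w => ψ (L w)) =ᶠ[𝓝 z] fun w => fderiv ℝ ψ (L w) (L (e b)) := by
      filter_upwards [hd] with w hw using e1 _ _ hw
    rw [dv_congr _ e2]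
    have h3 : HasFDerivAt (fun w => fderiv ℝ ψ (L w)) ((fderiv ℝ (fderiv ℝ ψ) (L z)).comp L) z :=
      hd2.hasFDerivAt.comp z L.hasFDerivAt
    have h4 := (h3.clm_apply (hasFDerivAt_const (L (e b)) z)).fderiv
    unfold dv
    rw [h4]
    simpa using h2 a b

/-- The linear form `a v₁ + b v₂`. -/
def l2 (a b : ℝ) : ℝ × ℝ →L[ℝ] ℝ :=
  a • ContinuousLinearMap.fst ℝ ℝ ℝ + b • ContinuousLinearMap.snd ℝ ℝ ℝ

theorem dv_two (v : E) {H : ℝ × ℝ → ℝ} {a b : ℝ} {f g : E → ℝ}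
    (hH : HasFDerivAt H (l2 a b) (f z, g z)) (hf : DifferentiableAt ℝ f z)
    (hg : DifferentiableAt ℝ g z) :
    dv v (fun w => H (f w, g w)) z = a * dv v f z + b * dv v g z := by
  have h1 := HasFDerivAt.comp z hH (hf.hasFDerivAt.prodMk hg.hasFDerivAt)
  have e : (H ∘ fun w => (f w, g w)) = fun w => H (f w, g w) := rfl
  rw [e] at h1
  unfold dv
  rw [h1.fderiv]
  simp [l2]

/-- Composition with a function of two variables. -/
theorem J2.two {H H₁ H₂ : ℝ × ℝ → ℝ} {a₁₁ a₁₂ a₂₁ a₂₂ A : ℝ} {Ω : Set (ℝ × ℝ)} (hΩ : IsOpen Ω)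
    (hf : J2 e f b₁ b₂ z) (hg : J2 e g c₁ c₂ z) (hz : (f z, g z) ∈ Ω) (hH : ContDiffOn ℝ 2 H Ω)
    (k : ∀ w ∈ Ω, HasFDerivAt H (l2 (H₁ w) (H₂ w)) w)
    (k1 : HasFDerivAt H₁ (l2 a₁₁ a₁₂) (f z, g z)) (k2 : HasFDerivAt H₂ (l2 a₂₁ a₂₂) (f z, g z))
    (m1 : |H₁ (f z, g z)| ≤ A) (m2 : |H₂ (f z, g z)| ≤ A) (m11 : |a₁₁| ≤ A) (m12 : |a₁₂| ≤ A)
    (m21 : |a₂₁| ≤ A) (m22 : |a₂₂| ≤ A) :
    J2 e (fun w => H (f w, g w)) (A * (b₁ + c₁)) (A * (b₁ + c₁) ^ 2 + A * (b₂ + c₂)) z := by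
  have nA : 0 ≤ A := (abs_nonneg _).trans m1
  have cf : ContinuousAt (fun w => (f w, g w)) z := hf.sm.continuousAt.prodMk hg.sm.continuousAt
  have hev : ∀ᶠ w in 𝓝 z, (f w, g w) ∈ Ω := cf.eventually (hΩ.mem_nhds hz)
  refine ⟨(hH.contDiffAt (hΩ.mem_nhds hz)).comp z (hf.sm.prodMk hg.sm), fun a => ?_,
    fun a b => ?_⟩
  · rw [dv_two _ (k _ hz) (diff2 hf.sm) (diff2 hg.sm)]
    refine (abs_add_le _ _).trans ?_
    rw [abs_mul, abs_mul, mul_add]
    exact add_le_add (mul_le_mul m1 (hf.d1 a) (abs_nonneg _) nA)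
      (mul_le_mul m2 (hg.d1 a) (abs_nonneg _) nA)
  · have e1 : dv (e b) (fun w => H (f w, g w)) =ᶠ[𝓝 z]
        fun w => H₁ (f w, g w) * dv (e b) f w + H₂ (f w, g w) * dv (e b) g w := by
      filter_upwards [ev_diff hf.sm, ev_diff hg.sm, hev] with w h1 h2 h3 using
        dv_two _ (k _ h3) h1 h2
    have df := diff2 hf.sm
    have dg := diff2 hg.sm
    have dp : HasFDerivAt (fun w => (f w, g w)) _ z := df.hasFDerivAt.prodMk dg.hasFDerivAt
    have d1 : DifferentiableAt ℝ (fun w => H₁ (f w, g w)) z :=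
      (HasFDerivAt.comp z k1 dp).differentiableAt
    have d2 : DifferentiableAt ℝ (fun w => H₂ (f w, g w)) z :=
      (HasFDerivAt.comp z k2 dp).differentiableAt
    have df' := diff_dv (e b) hf.sm
    have dg' := diff_dv (e b) hg.sm
    rw [dv_congr _ e1, dv_add _ (d1.fun_mul df') (d2.fun_mul dg'), dv_mul _ d1 df',
      dv_mul _ d2 dg', dv_two _ k1 df dg, dv_two _ k2 df dg]
    have nb : 0 ≤ b₁ := (abs_nonneg _).trans (hf.d1 a)
    have nc : 0 ≤ c₁ := (abs_nonneg _).trans (hg.d1 a)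
    have q1 : |a₁₁ * dv (e a) f z + a₁₂ * dv (e a) g z| ≤ A * (b₁ + c₁) := by
      refine (abs_add_le _ _).trans ?_
      rw [abs_mul, abs_mul, mul_add]
      exact add_le_add (mul_le_mul m11 (hf.d1 a) (abs_nonneg _) nA)
        (mul_le_mul m12 (hg.d1 a) (abs_nonneg _) nA)
    have q2 : |a₂₁ * dv (e a) f z + a₂₂ * dv (e a) g z| ≤ A * (b₁ + c₁) := by
      refine (abs_add_le _ _).trans ?_
      rw [abs_mul, abs_mul, mul_add]
      exact add_le_add (mul_le_mul m21 (hf.d1 a) (abs_nonneg _) nA)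
        (mul_le_mul m22 (hg.d1 a) (abs_nonneg _) nA)
    have nq : 0 ≤ A * (b₁ + c₁) := by positivity
    have t1 : |(a₁₁ * dv (e a) f z + a₁₂ * dv (e a) g z) * dv (e b) f z| ≤
        A * (b₁ + c₁) * b₁ := by
      rw [abs_mul]; exact mul_le_mul q1 (hf.d1 b) (abs_nonneg _) nq
    have t2 : |(a₂₁ * dv (e a) f z + a₂₂ * dv (e a) g z) * dv (e b) g z| ≤
        A * (b₁ + c₁) * c₁ := by
      rw [abs_mul]; exact mul_le_mul q2 (hg.d1 b) (abs_nonneg _) nq
    have t3 : |H₁ (f z, g z) * dv (e a) (dv (e b) f) z| ≤ A * b₂ := by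
      rw [abs_mul]; exact mul_le_mul m1 (hf.d2 a b) (abs_nonneg _) nA
    have t4 : |H₂ (f z, g z) * dv (e a) (dv (e b) g) z| ≤ A * c₂ := by
      rw [abs_mul]; exact mul_le_mul m2 (hg.d2 a b) (abs_nonneg _) nA
    have s1 := abs_add_le ((a₁₁ * dv (e a) f z + a₁₂ * dv (e a) g z) * dv (e b) f z +
      H₁ (f z, g z) * dv (e a) (dv (e b) f) z)
      ((a₂₁ * dv (e a) f z + a₂₂ * dv (e a) g z) * dv (e b) g z +
      H₂ (f z, g z) * dv (e a) (dv (e b) g) z)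
    have s2 := abs_add_le ((a₁₁ * dv (e a) f z + a₁₂ * dv (e a) g z) * dv (e b) f z)
      (H₁ (f z, g z) * dv (e a) (dv (e b) f) z)
    have s3 := abs_add_le ((a₂₁ * dv (e a) f z + a₂₂ * dv (e a) g z) * dv (e b) g z)
      (H₂ (f z, g z) * dv (e a) (dv (e b) g) z)
    nlinarith

end Vale.Agent.P088.R2.H808.A
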